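import Mathlib
import Vale.Agent.P207.N3.H828.CK

/-!
# Bounded calculus for `C^k` maps (helper469, line N3 of P207)

`comp_scale`: composition with a map whose derivatives are all of size `κ`.
`CkB.comp`, `CkB.bilin`: uniform bounds for compositions and products.
`flat_bound`: a map with vanishing jet of order `< j` at `0`.
-/

open Set Filter Topology Metric
open scoped ContDiff

noncomputable section

namespace Vale.Agent.P207.N3.H469

open Vale.Agent.P207.N3.H828

variable {E F G : Type*} [NormedAddCommGroup E] [NormedSpace ℝ E]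
  [NormedAddCommGroup F] [NormedSpace ℝ F] [NormedAddCommGroup G] [NormedSpace ℝ G]

/-- Composition with a map of size `κ`. -/
theorem comp_scale {k : ℕ} {s : Set E} {t : Set F} (hs : IsOpen s) (ht : IsOpen t) {g : F → G}
    {f : E → F} (hg : ContDiffOn ℝ k g t) (hf : ContDiffOn ℝ k f s) (hst : MapsTo f s t) {x : E}
    (hx : x ∈ s) {κ C D : ℝ} (hκ : 0 < κ)
    (hC : ∀ i ≤ k, ‖iteratedFDeriv ℝ i g (f x)‖ * κ ^ i ≤ C)
    (hD : ∀ i, 1 ≤ i → i ≤ k → ‖iteratedFDeriv ℝ i f x‖ ≤ κ * D ^ i) :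
    ‖iteratedFDeriv ℝ k (fun y => g (f y)) x‖ ≤ k.factorial * C * D ^ k := by
  set L : F →L[ℝ] F := κ • ContinuousLinearMap.id ℝ F with hL
  have hLn : ‖L‖ ≤ κ := by
    rw [hL, norm_smul, Real.norm_of_nonneg hκ.le]
    exact mul_le_of_le_one_right hκ.le ContinuousLinearMap.norm_id_le
  have hLa : ∀ v, L v = κ • v := fun v => rfl
  set f' : E → F := fun y => κ⁻¹ • f y with hf'
  set g' : F → G := g ∘ L with hg'
  set t' : Set F := L ⁻¹' t with ht'
  have hLf : ∀ y, L (f' y) = f y := fun y => by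
    rw [hLa, hf']; exact smul_inv_smul₀ hκ.ne' _
  have ht'o : IsOpen t' := ht.preimage L.continuous
  have hg'c : ContDiffOn ℝ k g' t' := hg.comp L.contDiff.contDiffOn fun v hv => hv
  have hf'c : ContDiffOn ℝ k f' s := contDiffOn_const.smul hf
  have hmap : MapsTo f' s t' := fun y hy => by
    show L (f' y) ∈ t
    rw [hLf]; exact hst hy
  have heq : (fun y => g (f y)) = g' ∘ f' := by
    funext y
    show g (f y) = g (L (f' y))
    rw [hLf]
  rw [heq, ← iteratedFDerivWithin_of_isOpen k hs hx]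
  refine norm_iteratedFDerivWithin_comp_le (N := (k : ℕ∞)) hg'c hf'c le_rfl ht'o.uniqueDiffOn
    hs.uniqueDiffOn hmap hx (fun i hi => ?_) (fun i h1 hi => ?_)
  · rw [hg', ht', L.iteratedFDerivWithin_comp_right hg ht.uniqueDiffOn ht'o.uniqueDiffOn
      (by show L (f' x) ∈ t; rw [hLf]; exact hst hx) (by exact_mod_cast hi)]
    refine (ContinuousMultilinearMap.norm_compContinuousLinearMap_le _ _).trans ?_
    rw [hLf, iteratedFDerivWithin_of_isOpen i ht (hst hx), Finset.prod_const, Finset.card_univ,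
      Fintype.card_fin]
    refine le_trans ?_ (hC i hi)
    gcongr
  · rw [hf']
    have := iteratedFDerivWithin_const_smul_apply (𝕜 := ℝ) (i := i) (a := κ⁻¹)
      (hf.contDiffWithinAt hx |>.of_le (by exact_mod_cast hi)) hs.uniqueDiffOn hx
    have h2 : (κ⁻¹ • f) = fun y => κ⁻¹ • f y := rfl
    rw [← h2, this, norm_smul, iteratedFDerivWithin_of_isOpen i hs hx, norm_inv,
      Real.norm_of_nonneg hκ.le, inv_mul_le_iff₀ hκ]
    exact hD i h1 hi

theorem norm_iter_sub_const (h : E → F) (c : F) {i : ℕ} (hi : 1 ≤ i) (y : E) :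
    ‖iteratedFDeriv ℝ i (fun z => h z - c) y‖ = ‖iteratedFDeriv ℝ i h y‖ := by
  obtain ⟨n, rfl⟩ : ∃ n, i = n + 1 := ⟨i - 1, by omega⟩
  rw [← norm_iteratedFDeriv_fderiv, ← norm_iteratedFDeriv_fderiv]
  congr 2
  funext z
  exact fderiv_sub_const c

theorem norm_iter_cast {a b : ℕ} (h : a = b) (f : E → F) (y : E) :
    ‖iteratedFDeriv ℝ a f y‖ = ‖iteratedFDeriv ℝ b f y‖ := by rw [h]

/-- Composition with a map of size `κ`, derivatives of order `≥ 1`. -/
theorem comp_scale_pos {k : ℕ} (hk : 1 ≤ k) {s : Set E} {t : Set F} (hs : IsOpen s) (ht : IsOpen t)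
    {g : F → G} {f : E → F} (hg : ContDiffOn ℝ k g t) (hf : ContDiffOn ℝ k f s) (hst : MapsTo f s t)
    {x : E} (hx : x ∈ s) {κ C D : ℝ} (hκ : 0 < κ) (hC0 : 0 ≤ C)
    (hC : ∀ i, 1 ≤ i → i ≤ k → ‖iteratedFDeriv ℝ i g (f x)‖ * κ ^ i ≤ C)
    (hD : ∀ i, 1 ≤ i → i ≤ k → ‖iteratedFDeriv ℝ i f x‖ ≤ κ * D ^ i) :
    ‖iteratedFDeriv ℝ k (fun y => g (f y)) x‖ ≤ k.factorial * C * D ^ k := by
  have h1 := comp_scale (g := fun z => g z - g (f x)) hs ht (hg.sub contDiffOn_const) hf hst hx hκ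
    (C := C) (D := D) (fun i hi => ?_) hD
  · rwa [norm_iter_sub_const (fun y => g (f y)) (g (f x)) hk] at h1
  · rcases Nat.eq_zero_or_pos i with rfl | hi0
    · simpa using hC0
    · rw [norm_iter_sub_const g (g (f x)) hi0]
      exact hC i hi0 hi

/-- the explicit constant for compositions -/
def compC (k : ℕ) (M K : ℕ → ℝ) : ℕ → ℝ := fun l =>
  l.factorial * (∑ i ∈ Finset.range (k + 1), |M i|) * (1 + ∑ i ∈ Finset.range (k + 1), |K i|) ^ l

/-- the explicit constant for products -/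
def bilinC (M K : ℕ → ℝ) : ℕ → ℝ := fun l =>
  ∑ i ∈ Finset.range (l + 1), (l.choose i : ℝ) * |M i| * |K (l - i)|

theorem le_one_add_sum_pow {k : ℕ} (K : ℕ → ℝ) {i : ℕ} (h1 : 1 ≤ i) (hi : i ≤ k) :
    K i ≤ (1 + ∑ j ∈ Finset.range (k + 1), |K j|) ^ i := by
  have h2 : |K i| ≤ ∑ j ∈ Finset.range (k + 1), |K j| :=
    Finset.single_le_sum (f := fun j => |K j|) (fun _ _ => abs_nonneg _)
      (Finset.mem_range.2 (by omega))
  have h3 : 1 ≤ 1 + ∑ j ∈ Finset.range (k + 1), |K j| := by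
    linarith [(abs_nonneg (K i)).trans h2]
  calc K i ≤ |K i| := le_abs_self _
    _ ≤ 1 + ∑ j ∈ Finset.range (k + 1), |K j| := by linarith
    _ ≤ _ := le_self_pow₀ h3 (by omega)

theorem CkB.comp {k : ℕ} {M K : ℕ → ℝ} {s : Set E} {t : Set F} (hs : IsOpen s) (ht : IsOpen t)
    {g : F → G} {f : E → F} (hg : CkB k M t g) (hf : CkB k K s f) (hst : MapsTo f s t) :
    CkB k (compC k M K) s (fun y => g (f y)) := by
  refine ⟨hg.1.comp hf.1 hst, fun l hl x hx => ?_⟩
  refine comp_scale hs ht (hg.1.of_le (by exact_mod_cast hl)) (hf.1.of_le (by exact_mod_cast hl))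
    hst hx one_pos (fun i hi => ?_) (fun i h1 hi => ?_)
  · rw [one_pow, mul_one]
    refine (hg.2 i (hi.trans hl) _ (hst hx)).trans ((le_abs_self _).trans ?_)
    exact Finset.single_le_sum (f := fun j => |M j|) (fun _ _ => abs_nonneg _)
      (Finset.mem_range.2 (by omega))
  · rw [one_mul]
    exact (hf.2 i (hi.trans hl) x hx).trans (le_one_add_sum_pow K h1 (hi.trans hl))

theorem CkB.bilin {H : Type*} [NormedAddCommGroup H] [NormedSpace ℝ H] {k : ℕ} {M K : ℕ → ℝ}
    {s : Set E} (hs : IsOpen s) {f : E → F} {g : E → G} (B : F →L[ℝ] G →L[ℝ] H) (hB : ‖B‖ ≤ 1)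
    (hf : CkB k M s f) (hg : CkB k K s g) : CkB k (bilinC M K) s (fun y => B (f y) (g y)) := by
  refine ⟨?_, fun l hl x hx => ?_⟩
  · exact (B.isBoundedBilinearMap.contDiff.comp_contDiffOn (hf.1.prodMk hg.1))
  · have h1 := B.norm_iteratedFDerivWithin_le_of_bilinear_of_le_one (N := (k : ℕ∞)) hf.1 hg.1
      hs.uniqueDiffOn hx (n := l) (by exact_mod_cast hl) hB
    rw [iteratedFDerivWithin_of_isOpen l hs hx] at h1
    refine h1.trans (Finset.sum_le_sum fun i hi => ?_)
    have hi' : i ≤ l := Nat.lt_succ_iff.1 (Finset.mem_range.1 hi)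
    rw [iteratedFDerivWithin_of_isOpen _ hs hx, iteratedFDerivWithin_of_isOpen _ hs hx]
    gcongr
    · exact (hf.2 i (hi'.trans hl) x hx).trans (le_abs_self _)
    · exact (hg.2 (l - i) ((Nat.sub_le _ _).trans hl) x hx).trans (le_abs_self _)

theorem CkB.add {k : ℕ} {M K : ℕ → ℝ} {s : Set E} (hs : IsOpen s) {f g : E → F}
    (hf : CkB k M s f) (hg : CkB k K s g) : CkB k (fun l => M l + K l) s (fun y => f y + g y) := by
  refine ⟨hf.1.add hg.1, fun l hl x hx => ?_⟩
  have h1 : iteratedFDeriv ℝ l (fun y => f y + g y) x =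
      iteratedFDeriv ℝ l f x + iteratedFDeriv ℝ l g x := by
    rw [← iteratedFDerivWithin_of_isOpen l hs hx, ← iteratedFDerivWithin_of_isOpen l hs hx,
      ← iteratedFDerivWithin_of_isOpen l hs hx]
    exact fun_iteratedFDerivWithin_add_apply ((hf.1.of_le (by exact_mod_cast hl)).contDiffWithinAt hx)
      ((hg.1.of_le (by exact_mod_cast hl)).contDiffWithinAt hx) hs.uniqueDiffOn hx
  rw [h1]
  exact (norm_add_le _ _).trans (add_le_add (hf.2 l hl x hx) (hg.2 l hl x hx))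

theorem iteratedFDeriv_sub_on {l : ℕ} {s : Set E} (hs : IsOpen s) {f g : E → F}
    (hf : ContDiffOn ℝ l f s) (hg : ContDiffOn ℝ l g s) {x : E} (hx : x ∈ s) :
    iteratedFDeriv ℝ l (fun y => f y - g y) x = iteratedFDeriv ℝ l f x - iteratedFDeriv ℝ l g x := by
  rw [← iteratedFDerivWithin_of_isOpen l hs hx, ← iteratedFDerivWithin_of_isOpen l hs hx,
    ← iteratedFDerivWithin_of_isOpen l hs hx]
  have h1 : (fun y => f y - g y) = fun y => f y + (-g) y := by
    funext y; rw [Pi.neg_apply, sub_eq_add_neg]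
  rw [h1, sub_eq_add_neg, ← iteratedFDerivWithin_neg_apply hs.uniqueDiffOn hx]
  exact fun_iteratedFDerivWithin_add_apply (hf.contDiffWithinAt hx) (hg.neg.contDiffWithinAt hx)
    hs.uniqueDiffOn hx

theorem CkB.sub {k : ℕ} {M K : ℕ → ℝ} {s : Set E} (hs : IsOpen s) {f g : E → F}
    (hf : CkB k M s f) (hg : CkB k K s g) : CkB k (fun l => M l + K l) s (fun y => f y - g y) := by
  refine ⟨hf.1.sub hg.1, fun l hl x hx => ?_⟩
  rw [iteratedFDeriv_sub_on hs (hf.1.of_le (by exact_mod_cast hl)) (hg.1.of_le (by exact_mod_cast hl))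
    hx]
  exact (norm_sub_le _ _).trans (add_le_add (hf.2 l hl x hx) (hg.2 l hl x hx))

/-- A map with vanishing jet at `0`. -/
theorem flat_aux {n : ℕ} {r K : ℝ} {f : E → F} (hf : ContDiffOn ℝ n f (ball 0 r))
    (h0 : ∀ i < n, iteratedFDeriv ℝ i f 0 = 0)
    (hn : ∀ u ∈ ball (0 : E) r, ‖iteratedFDeriv ℝ n f u‖ ≤ K * ‖u‖) :
    ∀ l ≤ n, ∀ u ∈ ball (0 : E) r, ‖iteratedFDeriv ℝ (n - l) f u‖ ≤ K * ‖u‖ ^ (l + 1) := by
  intro l
  induction l with
  | zero => intro _ u hu; simpa using hn u hu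
  | succ l ih =>
    intro hl u hu
    have ih' := ih (by omega)
    obtain ⟨m, rfl⟩ : ∃ m, n = m + 1 := ⟨n - 1, by omega⟩
    have hS : IsOpen (ball (0 : E) r) := isOpen_ball
    have hr : 0 < r := (norm_nonneg u).trans_lt (mem_ball_zero_iff.1 hu)
    have hsub : segment ℝ (0 : E) u ⊆ ball (0 : E) r :=
      (convex_ball (0 : E) r).segment_subset (mem_ball_self hr) hu
    have h1 : ∀ w ∈ segment ℝ (0 : E) u, ‖w‖ ≤ ‖u‖ := fun w hw => by
      have : w ∈ closedBall (0 : E) ‖u‖ :=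
        (convex_closedBall (0 : E) ‖u‖).segment_subset (mem_closedBall_self (norm_nonneg _))
          (by simp) hw
      simpa using this
    have hK : ∀ w ∈ segment ℝ (0 : E) u, ‖iteratedFDeriv ℝ (m + 1 - l) f w‖ ≤ K * ‖u‖ ^ (l + 1) := by
      intro w hw
      rcases lt_or_ge K 0 with hK0 | hK0
      · have h2 := ih' w (hsub hw)
        have h3 : K * ‖w‖ ^ (l + 1) ≤ 0 := by
          have := pow_nonneg (norm_nonneg w) (l + 1)
          nlinarith
        -- then the norm at `u` forces `u = 0` or trivial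
        have h4 := ih' u hu
        have h5 : 0 ≤ K * ‖u‖ ^ (l + 1) := (norm_nonneg _).trans h4
        linarith [h2.trans h3]
      · exact (ih' w (hsub hw)).trans (by gcongr; exact h1 w hw)
    have h2 := (convex_segment (0 : E) u).norm_image_sub_le_of_norm_hasFDerivWithin_le
      (f := iteratedFDeriv ℝ (m + 1 - (l + 1)) f)
      (f' := fun w => (iteratedFDeriv ℝ (m + 1 - (l + 1) + 1) f w).curryLeft)
      (fun w hw => (hasFDerivAt_iter (k := m) hS hf (j := m + 1 - (l + 1)) (by omega)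
        (hsub hw)).hasFDerivWithinAt) (C := K * ‖u‖ ^ (l + 1)) (fun w hw => ?_)
      (left_mem_segment ℝ (0 : E) u) (right_mem_segment ℝ (0 : E) u)
    · rw [h0 _ (by omega), sub_zero, sub_zero] at h2
      refine h2.trans (le_of_eq ?_)
      ring
    · rw [ContinuousMultilinearMap.curryLeft_norm]
      exact (norm_iter_cast (by omega) f w).trans_le (hK w hw)

/-- A `C^{n+1}`-bounded map whose jet of order `n` vanishes at `0`. -/
theorem flat_bound {n : ℕ} {r K : ℝ} {f : E → F} (hf : ContDiffOn ℝ (n + 1 : ℕ) f (ball 0 r))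
    (h0 : ∀ i ≤ n, iteratedFDeriv ℝ i f 0 = 0)
    (hn : ∀ u ∈ ball (0 : E) r, ‖iteratedFDeriv ℝ (n + 1) f u‖ ≤ K) :
    ∀ l ≤ n, ∀ u ∈ ball (0 : E) r, ‖iteratedFDeriv ℝ (n - l) f u‖ ≤ K * ‖u‖ ^ (l + 1) := by
  refine flat_aux (hf.of_le (by exact_mod_cast Nat.le_succ n)) (fun i hi => h0 i hi.le) ?_
  intro u hu
  have hr : 0 < r := (norm_nonneg u).trans_lt (mem_ball_zero_iff.1 hu)
  have h2 := (convex_ball (0 : E) r).norm_image_sub_le_of_norm_hasFDerivWithin_le
      (f := iteratedFDeriv ℝ n f)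
      (f' := fun w => (iteratedFDeriv ℝ (n + 1) f w).curryLeft)
      (fun w hw => (hasFDerivAt_iter (k := n) isOpen_ball hf (j := n) le_rfl
        hw).hasFDerivWithinAt) (C := K) (fun w hw => ?_)
      (mem_ball_self hr) hu
  · rw [h0 _ le_rfl, sub_zero, sub_zero] at h2
    exact h2
  · rw [ContinuousMultilinearMap.curryLeft_norm]
    exact hn w hw

end Vale.Agent.P207.N3.H469
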