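import Vale.Agent.P207.N3.H545.LimDir
import Vale.Agent.P207.N3.H738.LeafC
import Vale.Agent.P207.N3.H828.Star

/-!
# Limits at homoclinic points (helper469, line N3 of P207)

Rescaled functions `ν_m (f ∘ e (z_m) - c)` along the frames `z_m = hol β⁻ (k β^m x₀)`: `C^j` bounds,
limits, and the conclusion of (1.3*).
-/

set_option maxSynthPendingDepth 3

open Set Filter Topology Metric
open scoped ContDiff

noncomputable section

namespace Vale.Agent.P207.N3.H469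

open Vale.Agent.P207.N3 Vale.Agent.P207.N3.H545 Vale.Agent.P207.N3.H738

variable {Γ X B : Type} [Group Γ] [MetricSpace X] [ProperSpace X] [MulAction Γ X]
  [IsIsometricSMul Γ X] [TopologicalSpace B] [CompactSpace B] [T2Space B] [MulAction Γ B]
  [ContinuousConstSMul Γ B]

variable {L : Leaf Γ X B} {o : Orb L} {k : Γ}

/-- the frames at the homoclinic point converge modulo the group -/
theorem tendsto_zf (hk : k • o.pos ≠ o.neg) :
    Tendsto (fun m => (k * o.β ^ m)⁻¹ • zf o k m) atTop (𝓝 o.x) := by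
  have hζ : k⁻¹ • o.neg ≠ o.pos := fun h => hk (by rw [← h, smul_inv_smul])
  refine (tends_fr o hζ).congr fun m => ?_
  have h1 : (o.β ^ m)⁻¹ • (k⁻¹ • o.neg) ≠ L.ep o.x := inv_pow_ne o hζ m
  have h2 := L.hol_smul (k * o.β ^ m) _ _ h1
  have h3 : (k * o.β ^ m) • ((o.β ^ m)⁻¹ • (k⁻¹ • o.neg)) = o.neg := by
    rw [mul_smul, smul_inv_smul, smul_inv_smul]
  rw [h3, mul_smul] at h2
  rw [eq_inv_smul_iff]
  exact h2.symm

/-- bounds at all real times from bounds at the times `m l` -/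
theorem sup_of (hk : k • o.pos ≠ o.neg) {f : B → ℝ} {c : ℝ} {ν : ℕ → ℝ} {m1 : ℝ} (hm1 : 1 ≤ m1)
    (hνg : ∀ m' m, m' ≤ m → ν m ≤ m1 ^ (m - m') * ν m') {C : ℝ}
    (hsup : ∀ᶠ m in atTop, ∀ u ∈ closedBall (0 : E2) 1,
      ν m * |f (L.e (zf o k m) u) - c| ≤ C) :
    ∃ C₂ : ℝ, 0 ≤ C₂ ∧ ∀ᶠ m : ℕ in atTop, ∀ r ∈ Icc 0 o.l, ∀ u ∈ ball (0 : E2) 3,
      ν m * |f (L.e (L.φ (m * o.l + r) (L.rot (o.a ^ m) (zf o k 0))) u) - c| ≤ C₂ := by
  have hl := o.ax.pos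
  obtain ⟨q, hq⟩ := exists_nat_ge (L.t1 / o.l)
  rw [div_le_iff₀ hl] at hq
  refine ⟨m1 ^ q * max C 0, by positivity, ?_⟩
  filter_upwards [(tendsto_sub_atTop_nat q).eventually hsup, eventually_ge_atTop q]
    with m hm hmq r hr u hu
  obtain ⟨m', rfl⟩ : ∃ m', m = m' + q := ⟨m - q, by omega⟩
  rw [Nat.add_sub_cancel] at hm
  have e1 : L.φ (((m' + q : ℕ) : ℝ) * o.l + r) (L.rot (o.a ^ (m' + q)) (zf o k 0)) =
      L.φ (r + q * o.l) (L.rot (o.a ^ q) (zf o k m')) := by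
    rw [zf_eq hk m', L.rot_φ, ← L.φ_add, pow_add, L.rot_mul]
    congr 1
    push_cast
    ring
  rw [e1]
  obtain ⟨v, hv, hve⟩ := L.engulf (L.rot (o.a ^ q) (zf o k m')) (r + q * o.l)
    (by linarith [hr.1]) ⟨u, ball_subset_closedBall hu, rfl⟩
  have hv3 : v ∈ closedBall (0 : E2) 3 :=
    ball_subset_closedBall (ball_subset_ball (by norm_num) hv)
  rw [L.e_rot _ _ _ hv3] at hve
  rw [← hve]
  have hv1 : (o.a ^ q) v ∈ closedBall (0 : E2) 1 := by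
    rw [mem_closedBall_zero_iff, LinearIsometryEquiv.norm_map]
    exact (mem_ball_zero_iff.1 hv).le
  have h1 := hm _ hv1
  have h2 := hνg m' (m' + q) (Nat.le_add_right _ _)
  rw [Nat.add_sub_cancel_left] at h2
  set V : ℝ := |f (L.e (zf o k m') ((o.a ^ q) v)) - c| with hV
  have hV0 : 0 ≤ V := abs_nonneg _
  calc ν (m' + q) * V ≤ (m1 ^ q * ν m') * V := mul_le_mul_of_nonneg_right h2 hV0
    _ = m1 ^ q * (ν m' * V) := by ring
    _ ≤ m1 ^ q * max C 0 := by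
        gcongr
        exact h1.trans (le_max_left _ _)

/-- `C^j` bounds of the rescaled functions and of `N ∇` of them -/
theorem zf_bdd (T : Tens L) (hk : k • o.pos ≠ o.neg) {f : B → ℝ} (hf : SmDir T o.neg f) {c : ℝ}
    {ν : ℕ → ℝ} {m1 : ℝ} (hm1 : 1 ≤ m1) (hν : ∀ m, 0 < ν m)
    (hνg : ∀ m' m, m' ≤ m → ν m ≤ m1 ^ (m - m') * ν m') {C : ℝ}
    (hsup : ∀ᶠ m in atTop, ∀ u ∈ closedBall (0 : E2) 1,
      ν m * |f (L.e (zf o k m) u) - c| ≤ C) (j : ℕ) :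
    ∃ D : ℝ, ∀ᶠ m : ℕ in atTop,
      CkB j 2 D (fun u => ν m * (f (L.e (zf o k m) u) - c)) ∧
      CkB j 2 D (fun u => T.N (zf o k m) u
        (gradient (fun u => ν m * (f (L.e (zf o k m) u) - c)) u)) := by
  have hl : 0 < o.l := o.ax.pos
  have hΛ0 : 0 ≤ Real.log m1 / o.l := div_nonneg (Real.log_nonneg hm1) hl.le
  obtain ⟨k₀, hk₀⟩ := dir_bdd T hΛ0
  set k' : ℕ := max k₀ j with hk'
  obtain ⟨C', hC1, hC⟩ := hk₀ k' (le_max_left _ _)
  obtain ⟨C₂, hC₂, hsup'⟩ := sup_of hk hm1 hνg hsup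
  obtain ⟨m₀, hm₀⟩ := Filter.eventually_atTop.1 hsup'
  -- initial bounds
  have hem0 : L.em (L.φ (m₀ * o.l) (zf o k 0)) = o.neg := by rw [L.em_φ]; exact em_zf hk 0
  obtain ⟨hf0, hW0⟩ := hf _ hem0
  have hle : ∀ i : ℕ, ((i : ℕ) : WithTop ℕ∞) ≤ ∞ := fun i =>
    WithTop.coe_le_coe.2 (le_top : (i : ℕ∞) ≤ ⊤)
  obtain ⟨c1, hc10, hc1⟩ := exists_CkB_of_contDiffOn (r := 1) (R := 3) (k := k' + 1) (by norm_num)
    (hf0.of_le (hle _))
  obtain ⟨c2, hc20, hc2⟩ := exists_CkB_of_contDiffOn (r := 1) (R := 3) (k := k') (by norm_num)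
    (hW0.of_le (hle _))
  have hb : ∀ b : O2,
      CkB (k' + 1) 1 (max c1 c2) (fun u => f (L.e (L.φ (m₀ * o.l) (L.rot b (zf o k 0))) u)) ∧
      CkB k' 1 (max c1 c2) (Wf T f (L.φ (m₀ * o.l) (L.rot b (zf o k 0)))) := by
    intro b
    rw [← L.rot_φ]
    constructor
    · refine CkB_congr (CkB_rot b (hc1.mono le_rfl le_rfl (le_max_left _ _))) fun u hu => ?_
      rw [L.e_rot b _ u (ball_subset_closedBall (ball_subset_ball (by norm_num) hu))]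
    · have h2 : CkB k' 1 (max c1 c2) (Wf T f (L.φ (m₀ * o.l) (zf o k 0))) :=
        hc2.mono le_rfl le_rfl (le_max_right _ _)
      exact CkB_Wf_rot (by norm_num) b h2
  obtain ⟨M₁, hM₁⟩ := orbit_bdd (T := T) hl hm1 hC (a := o.a) (z₀ := zf o k 0) (fb := f) (c := c)
    hν hνg (m₀ := m₀) (hc10.trans (le_max_left _ _)) hb hC₂ (fun m hm => hm₀ m hm)
  have htimes : ∀ᶠ m : ℕ in atTop, m₀ ≤ m ∧ L.t1 ≤ ((m : ℝ) - m₀) * o.l := by
    have h1 : Tendsto (fun m : ℕ => ((m : ℝ) - m₀) * o.l) atTop atTop :=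
      (tendsto_atTop_add_const_right _ _ tendsto_natCast_atTop_atTop).atTop_mul_const hl
    exact (eventually_ge_atTop m₀).and (h1.eventually_ge_atTop _)
  refine ⟨C' * M₁, htimes.mono fun m hm => ?_⟩
  obtain ⟨h1, h2⟩ := hM₁ m hm.1 hm.2
  rw [← zf_eq hk m] at h1 h2
  have hνe : ν m * (C' * (M₁ / ν m)) = C' * M₁ := by
    have := (hν m).ne'
    field_simp
  have hjk : j ≤ k' := le_max_right _ _
  constructor
  · have h3 := CkB_const_smul h1 (hν m).le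
    rw [hνe] at h3
    exact h3.mono (by omega) le_rfl le_rfl
  · have h3 := CkB_const_smul h2 (hν m).le
    rw [hνe] at h3
    refine CkB_congr (h3.mono hjk le_rfl le_rfl) fun u hu => ?_
    rw [gradient_const_mul, gradient_sub_const, map_smul]
    rfl

/-- **limits at homoclinic points** -/
theorem lc (T : Tens L) (hk : k • o.pos ≠ o.neg) {f : B → ℝ} (hf : SmDir T o.neg f) {c : ℝ}
    {ν : ℕ → ℝ} {m1 : ℝ} (hm1 : 1 ≤ m1) (hν : ∀ m, 0 < ν m)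
    (hνg : ∀ m' m, m' ≤ m → ν m ≤ m1 ^ (m - m') * ν m') {C : ℝ}
    (hsup : ∀ᶠ m in atTop, ∀ u ∈ closedBall (0 : E2) 1,
      ν m * |f (L.e (zf o k m) u) - c| ≤ C) {ψ : ℕ → ℕ} (hψ : Tendsto ψ atTop atTop) {P : E2 → ℝ}
    (hP : ∀ u ∈ ball (0 : E2) 2,
      Tendsto (fun i => ν (ψ i) * (f (L.e (zf o k (ψ i)) u) - c)) atTop (𝓝 (P u))) (j : ℕ) :
    (∃ D, CkB j 2 D P) ∧ (∃ D, CkB j 2 D (fun u => T.N o.x u (gradient P u))) ∧
      TendstoUniformlyOn (fun i => iteratedFDeriv ℝ j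
        (fun u => ν (ψ i) * (f (L.e (zf o k (ψ i)) u) - c))) (iteratedFDeriv ℝ j P) atTop
        (ball (0 : E2) 2) := by
  obtain ⟨D, hD⟩ := zf_bdd T hk hf hm1 hν hνg hsup (j + 1 + 1)
  obtain ⟨n₀, hn₀⟩ := Filter.eventually_atTop.1 (hψ.eventually hD)
  have hsh : Tendsto (fun i : ℕ => i + n₀) atTop atTop := tendsto_add_atTop_nat n₀
  have hzlim : Tendsto (fun i => (k * o.β ^ (ψ (i + n₀)))⁻¹ • zf o k (ψ (i + n₀))) atTop
      (𝓝 o.x) := ((tendsto_zf hk).comp hψ).comp hsh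
  have h1 := lim_rule T (l := (atTop : Filter ℕ)) hzlim
    (F := fun i u => ν (ψ (i + n₀)) * (f (L.e (zf o k (ψ (i + n₀))) u) - c)) (G := P)
    (k := j + 1) (by omega) (C := D) (C' := D)
    (fun i => (hn₀ (i + n₀) (Nat.le_add_left _ _)).1)
    (fun u hu => (hP u hu).comp hsh)
    (fun i => (hn₀ (i + n₀) (Nat.le_add_left _ _)).2)
  refine ⟨⟨D, h1.1.mono (by omega) le_rfl le_rfl⟩, ⟨D, h1.2.1.mono (by omega) le_rfl le_rfl⟩, ?_⟩
  have h2 := h1.2.2 j (by omega)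
  intro s hs
  have h3 := h2 s hs
  rw [← Filter.map_add_atTop_eq_nat n₀, Filter.eventually_map]
  exact h3

/-- **(1.3\*) at homoclinic points**: the limits are functions of one coordinate -/
theorem lc_star (T : Tens L) {k₀ : ℕ} (hR : Rough T k₀) (hk : k • o.pos ≠ o.neg) {f : B → ℝ}
    (hf : SmDir T o.neg f) {c : ℝ}
    {ν : ℕ → ℝ} {m1 : ℝ} (hm1 : 1 ≤ m1) (hν : ∀ m, 0 < ν m)
    (hνg : ∀ m' m, m' ≤ m → ν m ≤ m1 ^ (m - m') * ν m') {C : ℝ}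
    (hsup : ∀ᶠ m in atTop, ∀ u ∈ closedBall (0 : E2) 1,
      ν m * |f (L.e (zf o k m) u) - c| ≤ C) {ψ : ℕ → ℕ} (hψ : Tendsto ψ atTop atTop) {P : E2 → ℝ}
    (hP : ∀ u ∈ ball (0 : E2) 2,
      Tendsto (fun i => ν (ψ i) * (f (L.e (zf o k (ψ i)) u) - c)) atTop (𝓝 (P u)))
    {g : B → ℝ} (hg : SmDir T o.neg g) :
    H828.WedgeZero (ball 0 2) P (fun u => g (L.e o.x u)) := by
  obtain ⟨D, hD⟩ := (lc T hk hf hm1 hν hνg hsup hψ hP (k₀ + 1)).1
  obtain ⟨D', hD'⟩ := (lc T hk hf hm1 hν hνg hsup hψ hP k₀).2.1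
  obtain ⟨h1, h2⟩ := hg o.x rfl
  have hle : ∀ i : ℕ, ((i : ℕ) : WithTop ℕ∞) ≤ ∞ := fun i =>
    WithTop.coe_le_coe.2 (le_top : (i : ℕ∞) ≤ ⊤)
  have h23 : ball (0 : E2) 2 ⊆ ball 0 3 := ball_subset_ball (by norm_num)
  exact H828.star T hR (by norm_num) hD.1 ((h1.mono h23).of_le (hle _)) hD'.1
    ((h2.mono h23).of_le (hle _))

end Vale.Agent.P207.N3.H469
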