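import Vale.Agent.P207.N3.H469.Calc
import Vale.Agent.P207.N3.H545.Interp

/-!
# The smoothing lemma (helper469, line N3 of P207)

`Z_m = A_m (Z_{m+1} ∘ τ_m) + R_m`, `τ_m` contracting by `θ`, `‖A_m‖ ≤ a`, and `Z_m` is given up to
`O(|u|^j)` at `0` by a polynomial of degree `< j`, uniformly in `m`, with `a θ^j < 1`. Then `Z_0` is
smooth, with bounds for all derivatives.
-/

open Set Filter Topology Metric
open scoped ContDiff

noncomputable section

namespace Vale.Agent.P207.N3.H469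

open Vale.Agent.P207.N3.H828

universe u

variable {E V : Type u} [NormedAddCommGroup E] [NormedSpace ℝ E]
  [NormedAddCommGroup V] [NormedSpace ℝ V]

/-- contractions `σ m` (of size `θ^m`) and linear maps `A m` of norm `≤ a` -/
structure Chain (K : ℕ → ℝ) (a θ : ℝ) (A : ℕ → E → V →L[ℝ] V) (σ : ℕ → E → E) : Prop where
  σ_smooth : ∀ m, ContDiffOn ℝ ∞ (σ m) (ball 0 2)
  σ_maps : ∀ m, MapsTo (σ m) (ball 0 2) (ball 0 2)
  σ_zero : ∀ m, σ m 0 = 0
  σ_bound : ∀ m k, 1 ≤ k → ∀ u ∈ ball (0 : E) 2, ‖iteratedFDeriv ℝ k (σ m) u‖ ≤ K k * θ ^ m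
  A_smooth : ∀ m, ContDiffOn ℝ ∞ (A m) (ball 0 2)
  A_norm : ∀ m, ∀ u ∈ ball (0 : E) 2, ‖A m u‖ ≤ a
  A_bound : ∀ m k, ∀ u ∈ ball (0 : E) 2, ‖iteratedFDeriv ℝ k (A m) u‖ ≤ K k

variable {K : ℕ → ℝ} {a θ : ℝ} {A : ℕ → E → V →L[ℝ] V} {σ : ℕ → E → E}

omit [NormedSpace ℝ E] in
theorem zero_mem_two : (0 : E) ∈ ball (0 : E) 2 := mem_ball_self two_pos

theorem Chain.K_nonneg (h : Chain K a θ A σ) (k : ℕ) : 0 ≤ K k :=
  (norm_nonneg _).trans (h.A_bound 0 k 0 zero_mem_two)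

theorem Chain.σ_norm (h : Chain K a θ A σ) (m : ℕ) {u : E} (hu : u ∈ ball (0 : E) 2) :
    ‖σ m u‖ ≤ K 1 * θ ^ m * ‖u‖ := by
  have h1 := (convex_ball (0 : E) 2).norm_image_sub_le_of_norm_fderiv_le (𝕜 := ℝ) (f := σ m)
    (C := K 1 * θ ^ m)
    (fun x hx => ((h.σ_smooth m).contDiffAt (isOpen_ball.mem_nhds hx)).differentiableAt (by simp))
    (fun x hx => by
      have := h.σ_bound m 1 le_rfl x hx
      rwa [norm_iteratedFDeriv_one] at this) zero_mem_two hu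
  simpa [h.σ_zero m] using h1

/-- the sum of the first bounds -/
def sK (K : ℕ → ℝ) (l : ℕ) : ℝ := ∑ i ∈ Finset.range (l + 1), |K i|

theorem sK_nonneg (K : ℕ → ℝ) (l : ℕ) : 0 ≤ sK K l := Finset.sum_nonneg fun _ _ => abs_nonneg _

theorem le_sK (K : ℕ → ℝ) {i l : ℕ} (h : i ≤ l) : |K i| ≤ sK K l :=
  Finset.single_le_sum (f := fun j => |K j|) (fun _ _ => abs_nonneg _)
    (Finset.mem_range.2 (by omega))

/-- derivatives of `A_m ∘ σ_m` -/
theorem Chain.Aσ_bound (h : Chain K a θ A σ) (hθ0 : 0 < θ) (hθ1 : θ < 1) {l : ℕ} (hl : 1 ≤ l)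
    (m : ℕ) {u : E} (hu : u ∈ ball (0 : E) 2) :
    ‖iteratedFDeriv ℝ l (fun v => A m (σ m v)) u‖ ≤
      (l.factorial * sK K l * (1 + sK K l) ^ l) * θ ^ m := by
  have hκ : 0 < θ ^ m := pow_pos hθ0 m
  have hκ1 : θ ^ m ≤ 1 := pow_le_one₀ hθ0.le hθ1.le
  have h1 := comp_scale_pos hl isOpen_ball isOpen_ball
    ((h.A_smooth m).of_le (by exact_mod_cast le_top)) ((h.σ_smooth m).of_le (by exact_mod_cast le_top))
    (h.σ_maps m) hu hκ (C := sK K l * θ ^ m) (D := 1 + sK K l)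
    (mul_nonneg (sK_nonneg K l) hκ.le) (fun i hi1 hil => ?_) (fun i hi1 hil => ?_)
  · refine h1.trans (le_of_eq ?_)
    ring
  · have h2 : ‖iteratedFDeriv ℝ i (A m) (σ m u)‖ ≤ sK K l :=
      (h.A_bound m i _ (h.σ_maps m hu)).trans ((le_abs_self _).trans (le_sK K hil))
    calc ‖iteratedFDeriv ℝ i (A m) (σ m u)‖ * (θ ^ m) ^ i ≤ sK K l * (θ ^ m) ^ 1 :=
          mul_le_mul h2 (pow_le_pow_of_le_one hκ.le hκ1 hi1) (by positivity) (sK_nonneg K l)
      _ = sK K l * θ ^ m := by rw [pow_one]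
  · refine (h.σ_bound m i hi1 u hu).trans ?_
    rw [mul_comm]
    gcongr
    exact le_one_add_sum_pow K hi1 hil

/-- the product of the linear maps -/
def Bm (A : ℕ → E → V →L[ℝ] V) (σ : ℕ → E → E) : ℕ → E → V →L[ℝ] V
  | 0 => fun _ => ContinuousLinearMap.id ℝ V
  | m + 1 => fun u => (Bm A σ m u).comp (A m (σ m u))

theorem Chain.Aσ_smooth (h : Chain K a θ A σ) (m : ℕ) :
    ContDiffOn ℝ ∞ (fun u => A m (σ m u)) (ball 0 2) :=
  (h.A_smooth m).comp (h.σ_smooth m) (h.σ_maps m)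

theorem Chain.Bm_smooth (h : Chain K a θ A σ) (m : ℕ) : ContDiffOn ℝ ∞ (Bm A σ m) (ball 0 2) := by
  induction m with
  | zero => exact contDiffOn_const
  | succ m ih => exact ih.clm_comp (h.Aσ_smooth m)

theorem Chain.Bm_norm (h : Chain K a θ A σ) (ha : 1 ≤ a) (m : ℕ) {u : E}
    (hu : u ∈ ball (0 : E) 2) : ‖Bm A σ m u‖ ≤ a ^ m := by
  induction m with
  | zero =>
    rw [pow_zero]
    exact ContinuousLinearMap.norm_id_le
  | succ m ih =>
    calc ‖(Bm A σ m u).comp (A m (σ m u))‖ ≤ ‖Bm A σ m u‖ * ‖A m (σ m u)‖ :=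
          ContinuousLinearMap.opNorm_comp_le _ _
      _ ≤ a ^ m * a := by
          gcongr
          exact h.A_norm m _ (h.σ_maps m hu)
      _ = a ^ (m + 1) := (pow_succ a m).symm

/-- **Derivatives of the product.** -/
theorem exists_Bm_bound (E V : Type u) [NormedAddCommGroup E] [NormedSpace ℝ E]
    [NormedAddCommGroup V] [NormedSpace ℝ V] (K : ℕ → ℝ) {a θ : ℝ} (ha : 1 ≤ a) (hθ0 : 0 < θ)
    (hθ1 : θ < 1) (k : ℕ) :
    ∃ C : ℝ, 0 ≤ C ∧ ∀ (A : ℕ → E → V →L[ℝ] V) (σ : ℕ → E → E), Chain K a θ A σ →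
      ∀ m, ∀ u ∈ ball (0 : E) 2, ‖iteratedFDeriv ℝ k (Bm A σ m) u‖ ≤ C * a ^ m := by
  induction k using Nat.strong_induction_on with
  | _ k ih =>
    classical
    have ih' : ∀ i, ∃ C : ℝ, 0 ≤ C ∧ (i < k → ∀ (A : ℕ → E → V →L[ℝ] V) (σ : ℕ → E → E),
        Chain K a θ A σ → ∀ m, ∀ u ∈ ball (0 : E) 2,
          ‖iteratedFDeriv ℝ i (Bm A σ m) u‖ ≤ C * a ^ m) := by
      intro i
      by_cases hi : i < k
      · obtain ⟨C, hC0, hC⟩ := ih i hi
        exact ⟨C, hC0, fun _ => hC⟩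
      · exact ⟨0, le_rfl, fun h => absurd h hi⟩
    choose c hc0 hc using ih'
    set F : ℕ → ℝ := fun l => l.factorial * sK K l * (1 + sK K l) ^ l with hF
    have hF0 : ∀ l, 0 ≤ F l := fun l => by
      have := sK_nonneg K l
      positivity
    set C₂ : ℝ := ∑ i ∈ Finset.range k, (k.choose i : ℝ) * c i * F (k - i) with hC₂
    have hC₂0 : 0 ≤ C₂ := Finset.sum_nonneg fun i _ =>
      mul_nonneg (mul_nonneg (by positivity) (hc0 i)) (hF0 _)
    have h1θ : 0 < 1 - θ := by linarith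
    refine ⟨1 + C₂ / (1 - θ), by positivity, ?_⟩
    intro A σ h m u hu
    have key : ∀ m, ‖iteratedFDeriv ℝ k (Bm A σ m) u‖ ≤
        (1 + C₂ * ((1 - θ ^ m) / (1 - θ))) * a ^ m := by
      intro m
      induction m with
      | zero =>
        have h0 : ‖iteratedFDeriv ℝ k (Bm A σ 0) u‖ ≤ 1 := by
          rcases Nat.eq_zero_or_pos k with rfl | hk
          · rw [norm_iteratedFDeriv_zero]
            exact ContinuousLinearMap.norm_id_le
          · have : iteratedFDeriv ℝ k (Bm A σ 0) u = 0 := by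
              show iteratedFDeriv ℝ k (fun _ => ContinuousLinearMap.id ℝ V) u = 0
              rw [iteratedFDeriv_const_of_ne (by omega)]
              rfl
            rw [this, norm_zero]
            exact zero_le_one
        simpa using h0
      | succ m ihm =>
        have h2 := (ContinuousLinearMap.compL ℝ V V V).norm_iteratedFDerivWithin_le_of_bilinear_of_le_one
          (N := (k : ℕ∞)) ((h.Bm_smooth m).of_le (by exact_mod_cast le_top))
          ((h.Aσ_smooth m).of_le (by exact_mod_cast le_top)) isOpen_ball.uniqueDiffOn hu (n := k)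
          (by exact_mod_cast le_rfl) (ContinuousLinearMap.norm_compL_le ℝ V V V)
        rw [iteratedFDerivWithin_of_isOpen k isOpen_ball hu] at h2
        have h3 : (fun y => (ContinuousLinearMap.compL ℝ V V V) (Bm A σ m y) (A m (σ m y))) =
            Bm A σ (m + 1) := rfl
        rw [h3, Finset.sum_range_succ] at h2
        refine h2.trans ?_
        have h4 : ∑ i ∈ Finset.range k, (k.choose i : ℝ) *
            ‖iteratedFDerivWithin ℝ i (Bm A σ m) (ball 0 2) u‖ *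
            ‖iteratedFDerivWithin ℝ (k - i) (fun y => A m (σ m y)) (ball 0 2) u‖ ≤
            C₂ * (a ^ m * θ ^ m) := by
          rw [hC₂, Finset.sum_mul]
          refine Finset.sum_le_sum fun i hi => ?_
          have hik : i < k := Finset.mem_range.1 hi
          rw [iteratedFDerivWithin_of_isOpen _ isOpen_ball hu,
            iteratedFDerivWithin_of_isOpen _ isOpen_ball hu]
          have h5 := hc i hik A σ h m u hu
          have h6 := h.Aσ_bound hθ0 hθ1 (l := k - i) (by omega) m hu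
          have h7 : 0 ≤ c i * a ^ m := (norm_nonneg _).trans h5
          calc (k.choose i : ℝ) * ‖iteratedFDeriv ℝ i (Bm A σ m) u‖ *
                ‖iteratedFDeriv ℝ (k - i) (fun y => A m (σ m y)) u‖
              ≤ (k.choose i : ℝ) * (c i * a ^ m) * (F (k - i) * θ ^ m) := by gcongr
            _ = (k.choose i : ℝ) * c i * F (k - i) * (a ^ m * θ ^ m) := by ring
        have h8 : (k.choose k : ℝ) * ‖iteratedFDerivWithin ℝ k (Bm A σ m) (ball 0 2) u‖ *
            ‖iteratedFDerivWithin ℝ (k - k) (fun y => A m (σ m y)) (ball 0 2) u‖ ≤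
            (1 + C₂ * ((1 - θ ^ m) / (1 - θ))) * a ^ m * a := by
          rw [Nat.choose_self, Nat.cast_one, one_mul, Nat.sub_self,
            iteratedFDerivWithin_of_isOpen _ isOpen_ball hu,
            iteratedFDerivWithin_of_isOpen _ isOpen_ball hu, norm_iteratedFDeriv_zero]
          have h9 : 0 ≤ (1 + C₂ * ((1 - θ ^ m) / (1 - θ))) * a ^ m := (norm_nonneg _).trans ihm
          gcongr
          exact h.A_norm m _ (h.σ_maps m hu)
        refine (add_le_add h4 h8).trans ?_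
        have ham : 0 < a ^ m := pow_pos (by linarith) m
        have hθm : 0 < θ ^ m := pow_pos hθ0 m
        have h10 : (1 - θ ^ (m + 1)) / (1 - θ) = (1 - θ ^ m) / (1 - θ) + θ ^ m := by
          field_simp
          ring
        rw [h10, pow_succ a m]
        have h11 : C₂ * (a ^ m * θ ^ m) ≤ C₂ * θ ^ m * (a ^ m * a) := by
          have : C₂ * (a ^ m * θ ^ m) * 1 ≤ C₂ * (a ^ m * θ ^ m) * a := by gcongr
          linarith
        linarith
    refine (key m).trans ?_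
    have ham : 0 < a ^ m := pow_pos (by linarith) m
    have hθm : 0 < θ ^ m := pow_pos hθ0 m
    gcongr
    have : (1 - θ ^ m) / (1 - θ) ≤ 1 / (1 - θ) := by gcongr; linarith
    calc C₂ * ((1 - θ ^ m) / (1 - θ)) ≤ C₂ * (1 / (1 - θ)) := by gcongr
      _ = C₂ / (1 - θ) := by ring

/-! ### Flat maps along the chain -/

/-- A `C^j` map which is `O(|u|^j)` at `0`: the derivatives of order `i < j`. -/
theorem exists_flat_interp {i j : ℕ} (hij : i < j) : ∃ C : ℝ, 0 ≤ C ∧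
    ∀ (E V : Type u) [NormedAddCommGroup E] [NormedSpace ℝ E] [NormedAddCommGroup V]
      [NormedSpace ℝ V] (Q : E → V) (M ρ : ℝ) (v : E), ContDiffOn ℝ j Q (ball 0 2) →
      (∀ u ∈ ball (0 : E) 2, ‖Q u‖ ≤ M * ‖u‖ ^ j) →
      (∀ u ∈ ball (0 : E) 2, ‖iteratedFDeriv ℝ j Q u‖ ≤ M) → 0 < ρ → ρ ≤ 1 / 2 → ‖v‖ ≤ ρ →
      ‖iteratedFDeriv ℝ i Q v‖ ≤ C * M * ρ ^ (j - i) := by
  obtain ⟨C, hC0, hC⟩ := H545.exists_interp_scale.{u} i j hij
  refine ⟨C * (2 ^ j + 1), by positivity, ?_⟩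
  intro E V _ _ _ _ Q M ρ v hQ hQ0 hQj hρ hρ2 hv
  have hM : 0 ≤ M := (norm_nonneg _).trans (hQj 0 (mem_ball_self two_pos))
  have hn : ∀ y ∈ closedBall v ρ, ‖y‖ ≤ 2 * ρ := fun y hy => by
    have h1 : ‖y - v‖ ≤ ρ := by rwa [mem_closedBall, dist_eq_norm] at hy
    calc ‖y‖ = ‖(y - v) + v‖ := by rw [sub_add_cancel]
      _ ≤ ‖y - v‖ + ‖v‖ := norm_add_le _ _
      _ ≤ 2 * ρ := by linarith
  have hsub : ∀ y ∈ closedBall v ρ, y ∈ ball (0 : E) 2 := fun y hy => by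
    rw [mem_ball_zero_iff]
    linarith [hn y hy]
  have h1 := hC E V Q v ρ (M * (2 * ρ) ^ j) M hρ
    (fun y hy => hQ.contDiffAt (isOpen_ball.mem_nhds (hsub y hy)))
    (fun y hy => (hQ0 y (hsub y hy)).trans (by gcongr; exact hn y hy))
    (fun y hy => hQj y (hsub y hy))
  refine h1.trans (le_of_eq ?_)
  have h2 : (ρ⁻¹) ^ i * ρ ^ j = ρ ^ (j - i) := by
    rw [inv_pow, inv_mul_eq_iff_eq_mul₀ (pow_ne_zero _ hρ.ne'), ← pow_add]
    congr 1
    omega
  have h3 : (ρ⁻¹) ^ i * (M * (2 * ρ) ^ j) = M * 2 ^ j * ((ρ⁻¹) ^ i * ρ ^ j) := by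
    rw [mul_pow]; ring
  rw [h3, h2]
  ring

/-- derivatives of `Q ∘ σ_m` for a flat map `Q` -/
theorem exists_flat_comp (K : ℕ → ℝ) {a θ : ℝ} (hθ0 : 0 < θ) (hθ1 : θ < 1) (j : ℕ) (M : ℕ → ℝ)
    (M₀ : ℝ) (l : ℕ) : ∃ C : ℝ, 0 ≤ C ∧
    ∀ (E V : Type u) [NormedAddCommGroup E] [NormedSpace ℝ E] [NormedAddCommGroup V]
      [NormedSpace ℝ V] (A : ℕ → E → V →L[ℝ] V) (σ : ℕ → E → E), Chain K a θ A σ →
      ∀ Q : E → V, ContDiffOn ℝ ∞ Q (ball 0 2) →
      (∀ i, ∀ u ∈ ball (0 : E) 2, ‖iteratedFDeriv ℝ i Q u‖ ≤ M i) →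
      (∀ u ∈ ball (0 : E) 2, ‖Q u‖ ≤ M₀ * ‖u‖ ^ j) →
      ∀ m, ∀ u ∈ ball (0 : E) 2,
        ‖iteratedFDeriv ℝ l (fun v => Q (σ m v)) u‖ ≤ C * (θ ^ m) ^ j := by
  classical
  have hc : ∀ i, ∃ C : ℝ, 0 ≤ C ∧ (i < j → ∀ (E V : Type u) [NormedAddCommGroup E]
      [NormedSpace ℝ E] [NormedAddCommGroup V]
      [NormedSpace ℝ V] (Q : E → V) (M ρ : ℝ) (v : E), ContDiffOn ℝ j Q (ball 0 2) →
      (∀ u ∈ ball (0 : E) 2, ‖Q u‖ ≤ M * ‖u‖ ^ j) →
      (∀ u ∈ ball (0 : E) 2, ‖iteratedFDeriv ℝ j Q u‖ ≤ M) → 0 < ρ → ρ ≤ 1 / 2 → ‖v‖ ≤ ρ →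
      ‖iteratedFDeriv ℝ i Q v‖ ≤ C * M * ρ ^ (j - i)) := by
    intro i
    by_cases hij : i < j
    · obtain ⟨C, hC0, hC⟩ := exists_flat_interp.{u} hij
      exact ⟨C, hC0, fun _ => hC⟩
    · exact ⟨0, le_rfl, fun h => absurd h hij⟩
  choose c hc0 hc using hc
  set L : ℝ := 2 * |K 1| + 1 with hL
  have hL1 : 1 ≤ L := by rw [hL]; linarith [abs_nonneg (K 1)]
  set N : ℝ := |M₀| + |M j| with hN
  have hN0 : 0 ≤ N := by positivity
  set C₁ : ℝ := (∑ i ∈ Finset.range (l + 1), c i) * N * L ^ j + sK M l * (2 * L) ^ j with hC₁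
  have hsc : 0 ≤ ∑ i ∈ Finset.range (l + 1), c i := Finset.sum_nonneg fun i _ => hc0 i
  have hC₁0 : 0 ≤ C₁ := by
    have := sK_nonneg M l
    positivity
  refine ⟨l.factorial * C₁ * (1 + sK K l) ^ l, by have := sK_nonneg K l; positivity, ?_⟩
  intro E V _ _ _ _ A σ h Q hQ hQM hQ0 m u hu
  have hκ : 0 < θ ^ m := pow_pos hθ0 m
  have hκ1 : θ ^ m ≤ 1 := pow_le_one₀ hθ0.le hθ1.le
  set κ : ℝ := θ ^ m with hκdef
  have h1 := comp_scale isOpen_ball isOpen_ball (hQ.of_le (by exact_mod_cast le_top))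
    ((h.σ_smooth m).of_le (by exact_mod_cast le_top)) (h.σ_maps m) hu hκ (C := C₁ * κ ^ j)
    (D := 1 + sK K l) (k := l) (fun i hi => ?_) (fun i hi1 hil => ?_)
  · refine h1.trans (le_of_eq ?_)
    ring
  · have hσu := h.σ_maps m hu
    have hMi : ‖iteratedFDeriv ℝ i Q (σ m u)‖ ≤ sK M l :=
      (hQM i _ hσu).trans ((le_abs_self _).trans (le_sK M hi))
    have hsM := sK_nonneg M l
    have hκj : 0 < κ ^ j := pow_pos hκ j
    rcases lt_or_ge i j with hij | hij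
    · rcases le_or_gt (L * κ) (1 / 2) with hLκ | hLκ
      · have hσn : ‖σ m u‖ ≤ L * κ := by
          have h2 := h.σ_norm m hu
          have h3 : ‖u‖ ≤ 2 := (mem_ball_zero_iff.1 hu).le
          calc ‖σ m u‖ ≤ K 1 * κ * ‖u‖ := h2
            _ ≤ |K 1| * κ * 2 := by gcongr; exact le_abs_self _
            _ ≤ L * κ := by rw [hL]; nlinarith
        have h4 := hc i hij E V Q N (L * κ) (σ m u) (hQ.of_le (by exact_mod_cast le_top))
          (fun v hv => (hQ0 v hv).trans (by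
            gcongr
            rw [hN]; linarith [le_abs_self M₀, abs_nonneg (M j)]))
          (fun v hv => (hQM j v hv).trans (by
            rw [hN]; linarith [le_abs_self (M j), abs_nonneg M₀])) (by positivity) hLκ hσn
        have h5 : (L * κ) ^ (j - i) * κ ^ i ≤ L ^ j * κ ^ j := by
          rw [mul_pow, mul_assoc, ← pow_add, Nat.sub_add_cancel hij.le]
          gcongr
          exact Nat.sub_le _ _
        have h6 : c i ≤ ∑ i ∈ Finset.range (l + 1), c i :=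
          Finset.single_le_sum (f := c) (fun i _ => hc0 i) (Finset.mem_range.2 (by omega))
        calc ‖iteratedFDeriv ℝ i Q (σ m u)‖ * κ ^ i ≤ (c i * N * (L * κ) ^ (j - i)) * κ ^ i := by
              gcongr
          _ = c i * N * ((L * κ) ^ (j - i) * κ ^ i) := by ring
          _ ≤ (∑ i ∈ Finset.range (l + 1), c i) * N * (L ^ j * κ ^ j) := by gcongr
          _ ≤ C₁ * κ ^ j := by
              rw [hC₁]
              have : 0 ≤ sK M l * (2 * L) ^ j * κ ^ j := by positivity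
              linarith
      · have h2 : 1 ≤ (2 * L) ^ j * κ ^ j := by
          rw [← mul_pow]
          exact one_le_pow₀ (by linarith)
        calc ‖iteratedFDeriv ℝ i Q (σ m u)‖ * κ ^ i ≤ sK M l * 1 :=
              mul_le_mul hMi (pow_le_one₀ hκ.le hκ1) (by positivity) hsM
          _ ≤ sK M l * ((2 * L) ^ j * κ ^ j) := by gcongr
          _ ≤ C₁ * κ ^ j := by
              rw [hC₁]
              have : 0 ≤ (∑ i ∈ Finset.range (l + 1), c i) * N * L ^ j * κ ^ j := by positivity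
              linarith
    · calc ‖iteratedFDeriv ℝ i Q (σ m u)‖ * κ ^ i ≤ sK M l * κ ^ j :=
            mul_le_mul hMi (pow_le_pow_of_le_one hκ.le hκ1 hij) (by positivity) hsM
        _ ≤ sK M l * (2 * L) ^ j * κ ^ j := by
            have : 1 ≤ (2 * L) ^ j := one_le_pow₀ (by linarith)
            nlinarith [mul_nonneg hsM hκj.le]
        _ ≤ C₁ * κ ^ j := by
            rw [hC₁]
            have : 0 ≤ (∑ i ∈ Finset.range (l + 1), c i) * N * L ^ j * κ ^ j := by positivity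
            linarith
  · refine (h.σ_bound m i hi1 u hu).trans ?_
    rw [mul_comm]
    gcongr
    exact le_one_add_sum_pow K hi1 hil

/-- **Derivatives of the terms of the series.** -/
theorem exists_term_bound (E V : Type u) [NormedAddCommGroup E] [NormedSpace ℝ E]
    [NormedAddCommGroup V] [NormedSpace ℝ V] (K : ℕ → ℝ) {a θ : ℝ} (ha : 1 ≤ a) (hθ0 : 0 < θ)
    (hθ1 : θ < 1) (j : ℕ) (M : ℕ → ℝ) (M₀ : ℝ) (k : ℕ) : ∃ C : ℝ, 0 ≤ C ∧
    ∀ (A : ℕ → E → V →L[ℝ] V) (σ : ℕ → E → E), Chain K a θ A σ →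
      ∀ Q : E → V, ContDiffOn ℝ ∞ Q (ball 0 2) →
      (∀ i, ∀ u ∈ ball (0 : E) 2, ‖iteratedFDeriv ℝ i Q u‖ ≤ M i) →
      (∀ u ∈ ball (0 : E) 2, ‖Q u‖ ≤ M₀ * ‖u‖ ^ j) →
      ∀ m, ∀ u ∈ ball (0 : E) 2,
        ‖iteratedFDeriv ℝ k (fun v => Bm A σ m v (Q (σ m v))) u‖ ≤ C * (a * θ ^ j) ^ m := by
  choose c hc0 hc using fun i => exists_Bm_bound E V K ha hθ0 hθ1 i
  choose d hd0 hd using fun i => exists_flat_comp.{u} K (a := a) hθ0 hθ1 j M M₀ i
  refine ⟨∑ i ∈ Finset.range (k + 1), (k.choose i : ℝ) * c i * d (k - i),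
    Finset.sum_nonneg fun i _ => mul_nonneg (mul_nonneg (by positivity) (hc0 i)) (hd0 _), ?_⟩
  intro A σ h Q hQ hQM hQ0 m u hu
  have hQσ : ContDiffOn ℝ ∞ (fun v => Q (σ m v)) (ball 0 2) := hQ.comp (h.σ_smooth m) (h.σ_maps m)
  have h2 := (ContinuousLinearMap.id ℝ (V →L[ℝ] V)).norm_iteratedFDerivWithin_le_of_bilinear_of_le_one
    (N := (k : ℕ∞)) ((h.Bm_smooth m).of_le (by exact_mod_cast le_top))
    (hQσ.of_le (by exact_mod_cast le_top)) isOpen_ball.uniqueDiffOn hu (n := k)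
    (by exact_mod_cast le_rfl) ContinuousLinearMap.norm_id_le
  rw [iteratedFDerivWithin_of_isOpen k isOpen_ball hu] at h2
  refine h2.trans ?_
  rw [Finset.sum_mul]
  refine Finset.sum_le_sum fun i hi => ?_
  rw [iteratedFDerivWithin_of_isOpen _ isOpen_ball hu, iteratedFDerivWithin_of_isOpen _ isOpen_ball hu]
  have h3 := hc i A σ h m u hu
  have h4 := hd (k - i) E V A σ h Q hQ hQM hQ0 m u hu
  have h5 : 0 ≤ c i * a ^ m := (norm_nonneg _).trans h3
  calc (k.choose i : ℝ) * ‖iteratedFDeriv ℝ i (Bm A σ m) u‖ *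
        ‖iteratedFDeriv ℝ (k - i) (fun y => Q (σ m y)) u‖
      ≤ (k.choose i : ℝ) * (c i * a ^ m) * (d (k - i) * (θ ^ m) ^ j) := by gcongr
    _ = (k.choose i : ℝ) * c i * d (k - i) * (a * θ ^ j) ^ m := by
        rw [mul_pow, ← pow_mul, ← pow_mul, mul_comm m j]; ring

theorem CkB.congr {k : ℕ} {M : ℕ → ℝ} {S : Set E} (hS : IsOpen S) {F G : E → V}
    (h : CkB k M S F) (hFG : ∀ u ∈ S, G u = F u) : CkB k M S G := by
  refine ⟨h.1.congr hFG, fun l hl u hu => ?_⟩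
  have : iteratedFDeriv ℝ l G u = iteratedFDeriv ℝ l F u := by
    rw [← iteratedFDerivWithin_of_isOpen l hS hu, ← iteratedFDerivWithin_of_isOpen l hS hu]
    exact iteratedFDerivWithin_congr hFG hu l
  rw [this]
  exact h.2 l hl u hu

/-- the partial sums -/
def Sm (A : ℕ → E → V →L[ℝ] V) (σ : ℕ → E → E) (Q : ℕ → E → V) : ℕ → E → V
  | 0 => fun _ => 0
  | m + 1 => fun u => Sm A σ Q m u + Bm A σ m u (Q m (σ m u))

/-- **The telescoping theorem.** -/
theorem exists_telescope (E V : Type u) [NormedAddCommGroup E] [NormedSpace ℝ E]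
    [NormedAddCommGroup V] [NormedSpace ℝ V] [FiniteDimensional ℝ E] [FiniteDimensional ℝ V]
    (K : ℕ → ℝ) {a θ : ℝ} (ha : 1 ≤ a) (hθ0 : 0 < θ)
    (hθ1 : θ < 1) {j : ℕ} (hj : a * θ ^ j < 1) (M : ℕ → ℝ) (M₀ : ℝ) (k : ℕ) : ∃ C : ℕ → ℝ,
    ∀ (A : ℕ → E → V →L[ℝ] V) (σ : ℕ → E → E), Chain K a θ A σ →
      ∀ Q D : ℕ → E → V, (∀ m, ContDiffOn ℝ ∞ (Q m) (ball 0 2)) →
      (∀ m i, ∀ u ∈ ball (0 : E) 2, ‖iteratedFDeriv ℝ i (Q m) u‖ ≤ M i) →
      (∀ m, ∀ u ∈ ball (0 : E) 2, ‖Q m u‖ ≤ M₀ * ‖u‖ ^ j) →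
      (∀ m, ∀ u ∈ ball (0 : E) 2, ‖D m u‖ ≤ M₀ * ‖u‖ ^ j) →
      (∀ m, ∀ u ∈ ball (0 : E) 2, D m (σ m u) = Q m (σ m u) + A m (σ m u) (D (m + 1) (σ (m + 1) u))) →
      (∀ u ∈ ball (0 : E) 2, σ 0 u = u) →
      CkB k C (ball 0 2) (D 0) := by
  choose c hc0 hc using fun i => exists_term_bound E V K ha hθ0 hθ1 j M M₀ i
  set q : ℝ := a * θ ^ j with hq
  have hq0 : 0 < q := by positivity
  have h1q : 0 < 1 - q := by linarith
  refine ⟨fun i => c i / (1 - q), ?_⟩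
  intro A σ h Q D hQ hQM hQ0 hD0 hrec hσ0
  have hWsm : ∀ m, ContDiffOn ℝ ∞ (fun u => Bm A σ m u (Q m (σ m u))) (ball 0 2) := fun m =>
    (h.Bm_smooth m).clm_apply ((hQ m).comp (h.σ_smooth m) (h.σ_maps m))
  have hSsm : ∀ m, ContDiffOn ℝ ∞ (Sm A σ Q m) (ball 0 2) := by
    intro m
    induction m with
    | zero => exact contDiffOn_const
    | succ m ih => exact ih.add (hWsm m)
  have hSb : ∀ (i m : ℕ), ∀ u ∈ ball (0 : E) 2,
      ‖iteratedFDeriv ℝ i (Sm A σ Q m) u‖ ≤ c i * ((1 - q ^ m) / (1 - q)) := by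
    intro i m u hu
    induction m with
    | zero =>
      have : iteratedFDeriv ℝ i (Sm A σ Q 0) u = 0 := by
        show iteratedFDeriv ℝ i (fun _ => (0 : V)) u = 0
        simp
      rw [this]
      simp
    | succ m ih =>
      have h1 : iteratedFDeriv ℝ i (Sm A σ Q (m + 1)) u = iteratedFDeriv ℝ i (Sm A σ Q m) u +
          iteratedFDeriv ℝ i (fun v => Bm A σ m v (Q m (σ m v))) u := by
        rw [← iteratedFDerivWithin_of_isOpen i isOpen_ball hu,
          ← iteratedFDerivWithin_of_isOpen i isOpen_ball hu,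
          ← iteratedFDerivWithin_of_isOpen i isOpen_ball hu]
        exact fun_iteratedFDerivWithin_add_apply
          (((hSsm m).of_le (by exact_mod_cast le_top)).contDiffWithinAt hu)
          (((hWsm m).of_le (by exact_mod_cast le_top)).contDiffWithinAt hu)
          isOpen_ball.uniqueDiffOn hu
      rw [h1]
      refine (norm_add_le _ _).trans ((add_le_add ih
        (hc i A σ h (Q m) (hQ m) (hQM m) (hQ0 m) m u hu)).trans (le_of_eq ?_))
      have : (1 - q ^ (m + 1)) / (1 - q) = (1 - q ^ m) / (1 - q) + q ^ m := by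
        field_simp
        ring
      rw [this]
      ring
  have hSk : ∀ m, CkB (k + 1) (fun i => c i / (1 - q)) (ball (0 : E) 2) (Sm A σ Q m) := by
    intro m
    refine ⟨(hSsm m).of_le (by exact_mod_cast le_top), fun i _ u hu => (hSb i m u hu).trans ?_⟩
    have h1 : 0 < q ^ m := pow_pos hq0 m
    show c i * ((1 - q ^ m) / (1 - q)) ≤ c i / (1 - q)
    rw [← mul_div_assoc]
    refine div_le_div_of_nonneg_right ?_ h1q.le
    nlinarith [hc0 i]
  obtain ⟨φ, hφ, G, hG, hconv, -⟩ := ck_subseq isOpen_ball (convex_ball (0 : E) 2) isBounded_ball hSk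
  -- the telescoping identity
  have htel : ∀ m, ∀ u ∈ ball (0 : E) 2, D 0 u = Sm A σ Q m u + Bm A σ m u (D m (σ m u)) := by
    intro m u hu
    induction m with
    | zero =>
      show D 0 u = 0 + ContinuousLinearMap.id ℝ V (D 0 (σ 0 u))
      rw [hσ0 u hu]
      simp
    | succ m ih =>
      rw [ih, hrec m u hu]
      show _ = Sm A σ Q m u + Bm A σ m u (Q m (σ m u)) +
        (Bm A σ m u).comp (A m (σ m u)) (D (m + 1) (σ (m + 1) u))
      rw [map_add, ContinuousLinearMap.comp_apply]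
      abel
  refine CkB.congr isOpen_ball hG fun u hu => ?_
  -- both are limits
  have h1 : Tendsto (fun n => Sm A σ Q (φ n) u) atTop (𝓝 (G u)) := by
    have h2 := (hconv 0 (Nat.zero_le k)).tendsto_at hu
    have h3 : ∀ F : E → V, F u = (iteratedFDeriv ℝ 0 F u).curry0 := fun F => by
      simp [ContinuousMultilinearMap.curry0]
    have h4 : Continuous fun f : E [×0]→L[ℝ] V => f.curry0 :=
      (continuousMultilinearCurryFin0 ℝ E V).continuous
    have h5 := (h4.tendsto _).comp h2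
    rw [h3 G]
    refine h5.congr fun n => ?_
    exact (h3 _).symm
  have h2 : Tendsto (fun m => Sm A σ Q m u) atTop (𝓝 (D 0 u)) := by
    have h3 : Tendsto (fun m => Bm A σ m u (D m (σ m u))) atTop (𝓝 0) := by
      have h4 : ∀ m, ‖Bm A σ m u (D m (σ m u))‖ ≤ (|M₀| * (2 * |K 1|) ^ j) * q ^ m := by
        intro m
        have h5 : ‖σ m u‖ ≤ 2 * |K 1| * θ ^ m := by
          have h6 := h.σ_norm m hu
          have h7 : ‖u‖ ≤ 2 := (mem_ball_zero_iff.1 hu).le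
          have hθm : 0 < θ ^ m := pow_pos hθ0 m
          calc ‖σ m u‖ ≤ K 1 * θ ^ m * ‖u‖ := h6
            _ ≤ |K 1| * θ ^ m * 2 := by gcongr; exact le_abs_self _
            _ = 2 * |K 1| * θ ^ m := by ring
        calc ‖Bm A σ m u (D m (σ m u))‖ ≤ ‖Bm A σ m u‖ * ‖D m (σ m u)‖ :=
              ContinuousLinearMap.le_opNorm _ _
          _ ≤ a ^ m * (|M₀| * (2 * |K 1| * θ ^ m) ^ j) := by
              gcongr
              · exact h.Bm_norm ha m hu
              · refine (hD0 m _ (h.σ_maps m hu)).trans ?_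
                gcongr
                exact le_abs_self _
          _ = (|M₀| * (2 * |K 1|) ^ j) * q ^ m := by
              have h8 : (2 * |K 1| * θ ^ m) ^ j = (2 * |K 1|) ^ j * (θ ^ j) ^ m := by
                rw [mul_pow, ← pow_mul, ← pow_mul, mul_comm m j]
              rw [hq, mul_pow a, h8]
              ring
      refine squeeze_zero_norm h4 ?_
      have := (tendsto_pow_atTop_nhds_zero_of_lt_one hq0.le hj).const_mul (|M₀| * (2 * |K 1|) ^ j)
      simpa using this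
    have h4 : Tendsto (fun m => D 0 u - Bm A σ m u (D m (σ m u))) atTop (𝓝 (D 0 u - 0)) :=
      tendsto_const_nhds.sub h3
    rw [sub_zero] at h4
    refine h4.congr fun m => ?_
    rw [htel m u hu, add_sub_cancel_right]
  exact tendsto_nhds_unique (h2.comp hφ.tendsto_atTop) h1

/-! ### Polynomials -/

/-- the polynomial with the coefficients `p i`, `i < j` -/
def pol {j : ℕ} (p : ∀ i : Fin j, E [×(i : ℕ)]→L[ℝ] V) (u : E) : V := ∑ i, p i fun _ => u

/-- the bounds of a polynomial -/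
def cpol (j : ℕ) (M : ℝ) : ℕ → ℝ := fun l =>
  ∑ i : Fin j, ((i : ℕ).descFactorial l : ℝ) * M * 2 ^ (i : ℕ)

/-- the diagonal map -/
def dg (E : Type u) [NormedAddCommGroup E] [NormedSpace ℝ E] (i : ℕ) : E →L[ℝ] (Fin i → E) :=
  ContinuousLinearMap.pi fun _ => ContinuousLinearMap.id ℝ E

theorem norm_dg_apply (i : ℕ) (u : E) : ‖dg E i u‖ ≤ ‖u‖ :=
  (pi_norm_le_iff_of_nonneg (norm_nonneg u)).2 fun _ => le_rfl

theorem norm_dg (i : ℕ) : ‖dg E i‖ ≤ 1 :=
  ContinuousLinearMap.opNorm_le_bound _ zero_le_one fun u => by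
    rw [one_mul]; exact norm_dg_apply i u

theorem pol_term_bound {i : ℕ} (f : E [×i]→L[ℝ] V) {M : ℝ} (hf : ‖f‖ ≤ M) (l : ℕ) {u : E}
    (hu : u ∈ ball (0 : E) 2) :
    ‖iteratedFDeriv ℝ l (fun v => f fun _ => v) u‖ ≤ (i.descFactorial l : ℝ) * M * 2 ^ i := by
  have hM : 0 ≤ M := (norm_nonneg _).trans hf
  have h1 : (fun v => f fun _ => v) = f ∘ dg E i := rfl
  rw [h1, ContinuousLinearMap.iteratedFDeriv_comp_right (dg E i) (i := l) (n := (l : ℕ∞))
    f.contDiff u le_rfl]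
  refine (ContinuousMultilinearMap.norm_compContinuousLinearMap_le _ _).trans ?_
  have h2 := f.norm_iteratedFDeriv_le l (dg E i u)
  rw [Fintype.card_fin] at h2
  have h3 : ∏ _k : Fin l, ‖dg E i‖ ≤ 1 := Finset.prod_le_one (fun _ _ => norm_nonneg _)
    fun _ _ => norm_dg i
  have h4 : ‖dg E i u‖ ^ (i - l) ≤ 2 ^ i := by
    have h5 : ‖dg E i u‖ ≤ 2 := (norm_dg_apply i u).trans (mem_ball_zero_iff.1 hu).le
    calc ‖dg E i u‖ ^ (i - l) ≤ 2 ^ (i - l) := by gcongr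
      _ ≤ 2 ^ i := pow_le_pow_right₀ one_le_two (Nat.sub_le _ _)
  calc ‖iteratedFDeriv ℝ l f (dg E i u)‖ * ∏ _k : Fin l, ‖dg E i‖
      ≤ ((i.descFactorial l : ℝ) * ‖f‖ * ‖dg E i u‖ ^ (i - l)) * 1 :=
        mul_le_mul h2 h3 (Finset.prod_nonneg fun _ _ => norm_nonneg _) (by positivity)
    _ ≤ (i.descFactorial l : ℝ) * M * 2 ^ i := by
        rw [mul_one]
        gcongr

theorem pol_smooth {j : ℕ} (p : ∀ i : Fin j, E [×(i : ℕ)]→L[ℝ] V) : ContDiff ℝ ∞ (pol p) := by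
  refine ContDiff.sum fun i _ => ?_
  exact (p i).contDiff.comp (dg E i).contDiff

theorem pol_CkB {j : ℕ} {p : ∀ i : Fin j, E [×(i : ℕ)]→L[ℝ] V} {M : ℝ} (hp : ∀ i, ‖p i‖ ≤ M)
    (k : ℕ) : CkB k (cpol j M) (ball 0 2) (pol p) := by
  refine ⟨((pol_smooth p).of_le (by exact_mod_cast le_top)).contDiffOn, fun l _ u hu => ?_⟩
  have h1 : iteratedFDeriv ℝ l (pol p) u = ∑ i, iteratedFDeriv ℝ l (fun v => p i fun _ => v) u := by
    have := iteratedFDeriv_sum (𝕜 := ℝ) (i := l) (u := Finset.univ)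
      (f := fun (i : Fin j) (v : E) => p i fun _ => v)
      (fun i _ => ((p i).contDiff.comp (dg E i).contDiff : ContDiff ℝ (l : ℕ∞) _))
    have h2 : (pol p) = fun v => ∑ i, p i fun _ => v := rfl
    rw [h2]
    have h3 := congrFun this u
    simpa using h3
  rw [h1]
  exact (norm_sum_le _ _).trans (Finset.sum_le_sum fun i _ => pol_term_bound (p i) (hp i) l hu)

/-- **The smoothing lemma.** -/
theorem exists_smooth (E V : Type u) [NormedAddCommGroup E] [NormedSpace ℝ E]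
    [NormedAddCommGroup V] [NormedSpace ℝ V] [FiniteDimensional ℝ E] [FiniteDimensional ℝ V]
    (K : ℕ → ℝ) {a θ : ℝ} (ha : 1 ≤ a) (hθ0 : 0 < θ)
    (hθ1 : θ < 1) {j : ℕ} (hj : a * θ ^ j < 1) (M : ℝ) (k : ℕ) : ∃ C : ℕ → ℝ,
    ∀ (A : ℕ → E → V →L[ℝ] V) (σ : ℕ → E → E), Chain K a θ A σ →
      ∀ (τ : ℕ → E → E) (R Z : ℕ → E → V) (p : ℕ → ∀ i : Fin j, E [×(i : ℕ)]→L[ℝ] V),
      (∀ m, ContDiffOn ℝ ∞ (τ m) (ball 0 2)) →
      (∀ m, MapsTo (τ m) (ball 0 2) (ball 0 2)) →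
      (∀ m, τ m 0 = 0) →
      (∀ m i, 1 ≤ i → ∀ u ∈ ball (0 : E) 2, ‖iteratedFDeriv ℝ i (τ m) u‖ ≤ K i) →
      (∀ m, ContDiffOn ℝ ∞ (R m) (ball 0 2)) →
      (∀ m i, ∀ u ∈ ball (0 : E) 2, ‖iteratedFDeriv ℝ i (R m) u‖ ≤ K i) →
      (∀ u ∈ ball (0 : E) 2, σ 0 u = u) →
      (∀ m, ∀ u ∈ ball (0 : E) 2, σ (m + 1) u = τ m (σ m u)) →
      (∀ m, ∀ u ∈ ball (0 : E) 2, Z m u = A m u (Z (m + 1) (τ m u)) + R m u) →
      (∀ m i, ‖p m i‖ ≤ M) →
      (∀ m, ∀ u ∈ ball (0 : E) 2, ‖Z m u - pol (p m) u‖ ≤ M * ‖u‖ ^ j) →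
      CkB k C (ball 0 2) (Z 0) := by
  set K' : ℕ → ℝ := fun i => if i = 0 then 2 else K i with hK'
  set MQ : ℕ → ℝ := fun i => bilinC K (compC i (cpol j M) K') i + K i + cpol j M i with hMQ
  set M₀ : ℝ := |M| + a * (|M| * |K 1| ^ j) with hM₀
  obtain ⟨C, hC⟩ := exists_telescope E V K ha hθ0 hθ1 hj MQ M₀ k
  refine ⟨fun l => C l + cpol j M l, ?_⟩
  intro A σ h τ R Z p hτ hτm hτ0 hτb hR hRb hσ0 hσ hZ hp hZp
  set D : ℕ → E → V := fun m u => Z m u - pol (p m) u with hD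
  set Q : ℕ → E → V := fun m u => A m u (pol (p (m + 1)) (τ m u)) + R m u - pol (p m) u with hQ
  have hrel : ∀ m, ∀ u ∈ ball (0 : E) 2, D m u = Q m u + A m u (D (m + 1) (τ m u)) := by
    intro m u hu
    show Z m u - pol (p m) u = A m u (pol (p (m + 1)) (τ m u)) + R m u - pol (p m) u +
      A m u (Z (m + 1) (τ m u) - pol (p (m + 1)) (τ m u))
    rw [hZ m u hu, map_sub]
    abel
  have hpτ : ∀ m, ContDiffOn ℝ ∞ (fun u => pol (p (m + 1)) (τ m u)) (ball 0 2) := fun m =>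
    (pol_smooth _).comp_contDiffOn (hτ m)
  have hQs : ∀ m, ContDiffOn ℝ ∞ (Q m) (ball 0 2) := fun m =>
    (((h.A_smooth m).clm_apply (hpτ m)).add (hR m)).sub (pol_smooth _).contDiffOn
  have hQb : ∀ m i, ∀ u ∈ ball (0 : E) 2, ‖iteratedFDeriv ℝ i (Q m) u‖ ≤ MQ i := by
    intro m i u hu
    have h1 : CkB i K (ball (0 : E) 2) (A m) :=
      ⟨(h.A_smooth m).of_le (by exact_mod_cast le_top), fun l _ v hv => h.A_bound m l v hv⟩
    have h2 : CkB i K' (ball (0 : E) 2) (τ m) := by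
      refine ⟨(hτ m).of_le (by exact_mod_cast le_top), fun l _ v hv => ?_⟩
      rcases Nat.eq_zero_or_pos l with rfl | hl
      · rw [norm_iteratedFDeriv_zero]
        show _ ≤ if (0 : ℕ) = 0 then (2 : ℝ) else K 0
        rw [if_pos rfl]
        exact (mem_ball_zero_iff.1 (hτm m hv)).le
      · show _ ≤ if l = 0 then 2 else K l
        rw [if_neg hl.ne']
        exact hτb m l hl v hv
    have h3 : CkB i K (ball (0 : E) 2) (R m) :=
      ⟨(hR m).of_le (by exact_mod_cast le_top), fun l _ v hv => hRb m l v hv⟩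
    have h4 := CkB.comp isOpen_ball isOpen_ball (pol_CkB (hp (m + 1)) i) h2 (hτm m)
    have h5 := CkB.bilin isOpen_ball (ContinuousLinearMap.id ℝ (V →L[ℝ] V))
      ContinuousLinearMap.norm_id_le h1 h4
    exact (CkB.sub isOpen_ball (CkB.add isOpen_ball h5 h3) (pol_CkB (hp m) i)).2 i le_rfl u hu
  have hM0 : 0 ≤ |M| := abs_nonneg M
  have ha0 : 0 < a := by linarith
  have hDb : ∀ m, ∀ u ∈ ball (0 : E) 2, ‖D m u‖ ≤ |M| * ‖u‖ ^ j := fun m u hu =>
    (hZp m u hu).trans (by gcongr; exact le_abs_self M)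
  have hDb' : ∀ m, ∀ u ∈ ball (0 : E) 2, ‖D m u‖ ≤ M₀ * ‖u‖ ^ j := fun m u hu =>
    (hDb m u hu).trans (by
      gcongr
      rw [hM₀]
      have : 0 ≤ a * (|M| * |K 1| ^ j) := by positivity
      linarith)
  have hQ0 : ∀ m, ∀ u ∈ ball (0 : E) 2, ‖Q m u‖ ≤ M₀ * ‖u‖ ^ j := by
    intro m u hu
    have h1 : Q m u = D m u - A m u (D (m + 1) (τ m u)) := by rw [hrel m u hu]; abel
    have h2 : ‖τ m u‖ ≤ |K 1| * ‖u‖ := by
      have h3 := (convex_ball (0 : E) 2).norm_image_sub_le_of_norm_fderiv_le (𝕜 := ℝ) (f := τ m)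
        (C := |K 1|)
        (fun x hx => ((hτ m).contDiffAt (isOpen_ball.mem_nhds hx)).differentiableAt (by simp))
        (fun x hx => by
          have := hτb m 1 le_rfl x hx
          rw [norm_iteratedFDeriv_one] at this
          exact this.trans (le_abs_self _)) (mem_ball_self two_pos) hu
      simpa [hτ0 m] using h3
    rw [h1]
    calc ‖D m u - A m u (D (m + 1) (τ m u))‖ ≤ ‖D m u‖ + ‖A m u‖ * ‖D (m + 1) (τ m u)‖ :=
          (norm_sub_le _ _).trans (by gcongr; exact ContinuousLinearMap.le_opNorm _ _)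
      _ ≤ |M| * ‖u‖ ^ j + a * (|M| * (|K 1| * ‖u‖) ^ j) := by
          gcongr
          · exact hDb m u hu
          · exact h.A_norm m u hu
          · exact (hDb (m + 1) _ (hτm m hu)).trans (by gcongr)
      _ = M₀ * ‖u‖ ^ j := by rw [hM₀, mul_pow]; ring
  have h1 := hC A σ h Q D hQs hQb hQ0 hDb' (fun m u hu => by
    rw [hσ m u hu]
    exact hrel m _ (h.σ_maps m hu)) hσ0
  exact CkB.congr isOpen_ball (CkB.add isOpen_ball h1 (pol_CkB (hp 0) k)) fun u _ => by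
    show Z 0 u = Z 0 u - pol (p 0) u + pol (p 0) u
    abel

end Vale.Agent.P207.N3.H469
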