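import Vale.Agent.P207.N3.H469.Smooth
import Vale.Agent.P207.N3.H790.Taylor

/-!
# Taylor polynomials and their limits (helper469, line N3 of P207)
-/

open Set Filter Topology Metric
open scoped ContDiff Nat

noncomputable section

namespace Vale.Agent.P207.N3.H469

open Vale.Agent.P207.N3.H828 Vale.Agent.P207.N3.H790

section Ray

variable {E : Type} [NormedAddCommGroup E] [NormedSpace ℝ E]

/-- Taylor's theorem along rays, finite regularity. -/
theorem ray_taylor' (j : ℕ) : ∀ {W : Type} [NormedAddCommGroup W] [NormedSpace ℝ W] {g : E → W}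
    {r M : ℝ}, ContDiffOn ℝ j g (ball 0 r) →
    (∀ x ∈ ball (0 : E) r, ‖iteratedFDeriv ℝ j g x‖ ≤ M) → ∀ x ∈ ball (0 : E) r,
      ‖g x - tay g j x‖ ≤ M * ‖x‖ ^ j := by
  induction j with
  | zero =>
    intro W _ _ g r M hg hM x hx
    have := hM x hx
    rw [norm_iteratedFDeriv_zero] at this
    simpa [tay] using this
  | succ j ih =>
    intro W _ _ g r M hg hM x hx
    have hr : 0 < r := by
      have := mem_ball_zero_iff.1 hx
      exact (norm_nonneg x).trans_lt this
    have hM0 : 0 ≤ M := (norm_nonneg _).trans (hM x hx)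
    have hg' : ContDiffOn ℝ j (fderiv ℝ g) (ball 0 r) :=
      hg.fderiv_of_isOpen isOpen_ball (by exact_mod_cast le_rfl)
    have hM' : ∀ y ∈ ball (0 : E) r, ‖iteratedFDeriv ℝ j (fderiv ℝ g) y‖ ≤ M := by
      intro y hy
      rw [norm_iteratedFDeriv_fderiv]
      exact hM y hy
    have key := ih hg' hM'
    have hmem : ∀ t ∈ Icc (0 : ℝ) 1, t • x ∈ ball (0 : E) r := by
      intro t ht
      rw [mem_ball_zero_iff] at hx ⊢
      rw [norm_smul, Real.norm_eq_abs, abs_of_nonneg ht.1]
      calc t * ‖x‖ ≤ 1 * ‖x‖ := by gcongr; exact ht.2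
        _ < r := by rwa [one_mul]
    -- derivative of the remainder along the ray
    set ph : ℝ → W := fun t => g (t • x) - tay g (j + 1) (t • x) with hph
    have hder : ∀ t ∈ Icc (0 : ℝ) 1, HasDerivWithinAt ph
        ((fderiv ℝ g (t • x) - tay (fderiv ℝ g) j (t • x)) x) (Icc 0 1) t := by
      intro t ht
      have h1 : HasDerivAt (fun t : ℝ => g (t • x)) (fderiv ℝ g (t • x) x) t := by
        have hd : DifferentiableAt ℝ g (t • x) :=
          (hg.contDiffAt (isOpen_ball.mem_nhds (hmem t ht))).differentiableAt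
            (by exact_mod_cast Nat.succ_ne_zero j)
        have h2 : HasDerivAt (fun t : ℝ => t • x) x t := by
          simpa using (hasDerivAt_id t).smul_const x
        exact hd.hasFDerivAt.comp_hasDerivAt t h2
      have h2 : HasDerivAt (fun t : ℝ => tay g (j + 1) (t • x))
          (tay (fderiv ℝ g) j (t • x) x) t := by
        have e1 : (fun t : ℝ => tay g (j + 1) (t • x)) = fun t : ℝ =>
            ∑ i ∈ Finset.range (j + 1), (t ^ i * (i ! : ℝ)⁻¹) •
              iteratedFDeriv ℝ i g 0 (fun _ => x) := by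
          funext t
          exact tay_smul g (j + 1) x t
        rw [e1]
        have e2 : tay (fderiv ℝ g) j (t • x) x = ∑ i ∈ Finset.range (j + 1),
            ((i : ℝ) * t ^ (i - 1) * (i ! : ℝ)⁻¹) • iteratedFDeriv ℝ i g 0 (fun _ => x) := by
          rw [tay_smul, Finset.sum_range_succ', sum_apply]
          simp only [Nat.cast_zero, zero_mul, zero_smul, add_zero]
          refine Finset.sum_congr rfl fun i _ => ?_
          rw [smul_apply, iteratedFDeriv_succ_apply_right]
          have : ((i + 1 : ℕ) : ℝ) * t ^ (i + 1 - 1) * ((i + 1)! : ℝ)⁻¹ = t ^ i * (i ! : ℝ)⁻¹ := by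
            rw [Nat.add_sub_cancel, Nat.factorial_succ]
            push_cast
            have h3 : ((i : ℝ) + 1) ≠ 0 := by positivity
            have h4 : (i ! : ℝ) ≠ 0 := by positivity
            field_simp
          rw [this]
          rfl
        rw [e2]
        have := HasDerivAt.fun_sum (u := Finset.range (j + 1)) (x := t)
          (A := fun i (t : ℝ) => (t ^ i * (i ! : ℝ)⁻¹) • iteratedFDeriv ℝ i g 0 (fun _ => x))
          (A' := fun i => ((i : ℝ) * t ^ (i - 1) * (i ! : ℝ)⁻¹) •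
            iteratedFDeriv ℝ i g 0 (fun _ => x))
          (fun i _ => (((hasDerivAt_pow i t).mul_const _).smul_const _))
        exact this
      have h3 : HasDerivAt ph (fderiv ℝ g (t • x) x - tay (fderiv ℝ g) j (t • x) x) t :=
        h1.fun_sub h2
      exact h3.hasDerivWithinAt
    have hb : ∀ t ∈ Ico (0 : ℝ) 1,
        ‖(fderiv ℝ g (t • x) - tay (fderiv ℝ g) j (t • x)) x‖ ≤ M * ‖x‖ ^ (j + 1) := by
      intro t ht
      have ht' : t ∈ Icc (0 : ℝ) 1 := ⟨ht.1, ht.2.le⟩
      refine (ContinuousLinearMap.le_opNorm _ _).trans ?_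
      have h1 := key (t • x) (hmem t ht')
      have h2 : ‖t • x‖ ≤ ‖x‖ := by
        rw [norm_smul, Real.norm_eq_abs, abs_of_nonneg ht.1]
        exact mul_le_of_le_one_left (norm_nonneg _) ht.2.le
      calc _ ≤ (M * ‖t • x‖ ^ j) * ‖x‖ := by gcongr
        _ ≤ (M * ‖x‖ ^ j) * ‖x‖ := by gcongr
        _ = M * ‖x‖ ^ (j + 1) := by ring
    have := norm_image_sub_le_of_norm_deriv_le_segment_01' hder hb
    have z0 : ph 0 = 0 := by
      simp only [hph, zero_smul]
      unfold tay
      rw [Finset.sum_range_succ']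
      have : ∑ i ∈ Finset.range j, (((i + 1)! : ℝ)⁻¹) •
          iteratedFDeriv ℝ (i + 1) g 0 (fun _ => (0 : E)) = 0 := by
        refine Finset.sum_eq_zero fun i _ => ?_
        rw [ContinuousMultilinearMap.map_coord_zero _ (0 : Fin (i + 1)) rfl, smul_zero]
      rw [this]
      simp
    have z1 : ph 1 = g x - tay g (j + 1) x := by simp [hph]
    rw [z0, z1, sub_zero] at this
    exact this

end Ray

variable {E V : Type} [NormedAddCommGroup E] [NormedSpace ℝ E]
  [NormedAddCommGroup V] [NormedSpace ℝ V]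

/-- `F` is a polynomial of degree `< j` up to `O(|u|^j)`. -/
def Campa (j : ℕ) (M : ℝ) (F : E → V) : Prop :=
  ∃ p : ∀ i : Fin j, E [×(i : ℕ)]→L[ℝ] V, (∀ i, ‖p i‖ ≤ M) ∧
    ∀ u ∈ ball (0 : E) 2, ‖F u - pol p u‖ ≤ M * ‖u‖ ^ j

theorem campa_of_CkB {j : ℕ} {M : ℝ} {F : E → V} (hF : ContDiffOn ℝ j F (ball 0 2))
    (hM : ∀ i ≤ j, ∀ u ∈ ball (0 : E) 2, ‖iteratedFDeriv ℝ i F u‖ ≤ M) : Campa j M F := by
  refine ⟨fun i => ((i : ℕ)! : ℝ)⁻¹ • iteratedFDeriv ℝ i F 0, fun i => ?_, fun u hu => ?_⟩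
  · rw [norm_smul, norm_inv, Real.norm_natCast]
    have h1 : (1 : ℝ) ≤ ((i : ℕ)! : ℝ) := by exact_mod_cast Nat.one_le_iff_ne_zero.2 (Nat.factorial_ne_zero _)
    have h2 := hM i i.2.le 0 (mem_ball_self two_pos)
    calc ((i : ℕ)! : ℝ)⁻¹ * ‖iteratedFDeriv ℝ i F 0‖ ≤ 1 * ‖iteratedFDeriv ℝ i F 0‖ := by
          gcongr
          exact inv_le_one_of_one_le₀ h1
      _ ≤ M := by rwa [one_mul]
  · have h1 := ray_taylor' j hF (fun x hx => hM j le_rfl x hx) u hu
    have h2 : tay F j u = pol (fun i : Fin j => ((i : ℕ)! : ℝ)⁻¹ • iteratedFDeriv ℝ i F 0) u := by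
      unfold tay pol
      rw [Finset.sum_range]
      rfl
    rwa [h2] at h1

/-- pointwise limits -/
theorem Campa.limit [FiniteDimensional ℝ E] [FiniteDimensional ℝ V] {j : ℕ} {M : ℝ}
    {F : ℕ → E → V} {G : E → V} (hF : ∀ n, Campa j M (F n))
    (hG : ∀ u ∈ ball (0 : E) 2, Tendsto (fun n => F n u) atTop (𝓝 (G u))) : Campa j M G := by
  have hpW : ∀ j, ProperSpace (E [×j]→L[ℝ] V) := fun j => FiniteDimensional.proper ℝ _
  choose p hp hpF using hF
  let KK : Set (∀ i : Fin j, E [×(i : ℕ)]→L[ℝ] V) := Set.pi univ fun i => closedBall 0 M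
  have hKK : IsCompact KK := isCompact_univ_pi fun i => isCompact_closedBall _ _
  obtain ⟨q, hq, w, hw, hlim⟩ := hKK.tendsto_subseq (x := p) fun n i _ => by
    rw [mem_closedBall_zero_iff]; exact hp n i
  refine ⟨q, fun i => ?_, fun u hu => ?_⟩
  · have := hq i (mem_univ i)
    rwa [mem_closedBall_zero_iff] at this
  · have h1 : Tendsto (fun n => pol (p (w n)) u) atTop (𝓝 (pol q u)) := by
      refine tendsto_finsetSum _ fun i _ => ?_
      have h2 := tendsto_pi_nhds.1 hlim i
      have h3 : Continuous fun f : E [×(i : ℕ)]→L[ℝ] V => f fun _ => u :=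
        continuous_eval_const _
      exact (h3.tendsto _).comp h2
    have h2 : Tendsto (fun n => ‖F (w n) u - pol (p (w n)) u‖) atTop (𝓝 ‖G u - pol q u‖) :=
      (((hG u hu).comp hw.tendsto_atTop).sub h1).norm
    exact le_of_tendsto h2 (Eventually.of_forall fun n => hpF (w n) u hu)

end Vale.Agent.P207.N3.H469
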